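import Vale.Agent.P315.Main

/-!
# Programs without random words from programs with random words

`derand p` = `p` with every random word replaced by `0`. A specification of `p` (for the tape `0`)
whose postcondition does not look at the number of random words is one of `derand p`.
-/

set_option autoImplicit false

namespace Vale.Agent.P315

/-- Replace every random word by `0`. -/
def Prog.derand : Prog → Prog
  | .set i e => .set i e
  | .put j e e' => .put j e e'
  | .rand i => .set i (.lit 0)
  | .seq p q => .seq p.derand q.derand
  | .ite e p q => .ite e p.derand q.derand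
  | .loop i e p => .loop i e p.derand

/-- Change of the number of random words. -/
def State.withC (s : State) (c : ℕ) : State := { s with coins := c }

@[simp] theorem State.withC_reg (s : State) (c : ℕ) : (s.withC c).reg = s.reg := rfl
@[simp] theorem State.withC_arr (s : State) (c : ℕ) : (s.withC c).arr = s.arr := rfl
@[simp] theorem State.withC_coins (s : State) (c : ℕ) : (s.withC c).coins = c := rfl
theorem State.withC_self (s : State) : s.withC s.coins = s := rfl

@[simp] theorem Expr.eval_withC (s : State) (c : ℕ) (e : Expr) :
    e.eval (s.withC c) = e.eval s := by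
  induction e with
  | lit c => rfl
  | reg i => rfl
  | get j e ih => simp [Expr.eval, ih]
  | op o e e' ih ih' => simp [Expr.eval, ih, ih']

@[simp] theorem Expr.top_withC (s : State) (c : ℕ) (e : Expr) :
    e.top (s.withC c) = e.top s := by
  induction e with
  | lit c => rfl
  | reg i => rfl
  | get j e ih => simp [Expr.top, ih]
  | op o e e' ih ih' => simp [Expr.top, ih, ih']

theorem Prog.derand_norand (p : Prog) : p.derand.norand = true := by
  induction p with
  | set i e => rfl
  | put j e e' => rfl
  | rand i => rfl
  | seq p q ihp ihq => simp [Prog.derand, Prog.norand, ihp, ihq]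
  | ite e p q ihp ihq => simp [Prog.derand, Prog.norand, ihp, ihq]
  | loop i e p ih => simp [Prog.derand, Prog.norand, ih]

@[simp] theorem Prog.derand_wr (p : Prog) : p.derand.wr = p.wr := by
  induction p with
  | set i e => rfl
  | put j e e' => rfl
  | rand i => rfl
  | seq p q ihp ihq => simp [Prog.derand, Prog.wr, ihp, ihq]
  | ite e p q ihp ihq => simp [Prog.derand, Prog.wr, ihp, ihq]
  | loop i e p ih => simp [Prog.derand, Prog.wr, ih]

@[simp] theorem Prog.derand_wa (p : Prog) : p.derand.wa = p.wa := by
  induction p with
  | set i e => rfl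
  | put j e e' => rfl
  | rand i => rfl
  | seq p q ihp ihq => simp [Prog.derand, Prog.wa, ihp, ihq]
  | ite e p q ihp ihq => simp [Prog.derand, Prog.wa, ihp, ihq]
  | loop i e p ih => simp [Prog.derand, Prog.wa, ih]

theorem Prog.derand_run (ρ : ℕ → ℕ) (c : ℕ) (p : Prog) : ∀ s : State,
    p.derand.run ρ (s.withC c) = (p.run (fun _ => 0) s).withC c := by
  induction p with
  | set i e => intro s; simp only [Prog.derand, Prog.run, Expr.eval_withC]; rfl
  | put j e e' => intro s; simp only [Prog.derand, Prog.run, Expr.eval_withC]; rfl
  | rand i => intro s; rfl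
  | seq p q ihp ihq =>
    intro s
    simp only [Prog.derand, Prog.run]
    rw [ihp, ihq]
  | ite e p q ihp ihq =>
    intro s
    simp only [Prog.derand, Prog.run, Expr.eval_withC]
    split_ifs
    · exact ihq s
    · exact ihp s
  | loop i e p ih =>
    intro s
    simp only [Prog.derand, Prog.run, Expr.eval_withC]
    generalize e.eval s = m
    induction m with
    | zero => rfl
    | succ m ihm =>
      simp only [State.rounds]
      rw [ihm]
      exact ih ((s.rounds (fun t s' => p.run (fun _ => 0) (s'.setReg i t)) m).setReg i m)

theorem derand_rounds (ρ : ℕ → ℕ) (c : ℕ) (p : Prog) (i : ℕ) (s : State) (m : ℕ) :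
    (s.withC c).rounds (fun t s' => p.derand.run ρ (s'.setReg i t)) m =
      (s.rounds (fun t s' => p.run (fun _ => 0) (s'.setReg i t)) m).withC c := by
  induction m with
  | zero => rfl
  | succ m ihm =>
    simp only [State.rounds]
    rw [ihm]
    exact Prog.derand_run ρ c p
      ((s.rounds (fun t s' => p.run (fun _ => 0) (s'.setReg i t)) m).setReg i m)

theorem Prog.derand_time (ρ : ℕ → ℕ) (c : ℕ) (p : Prog) : ∀ s : State,
    p.derand.time ρ (s.withC c) ≤ 2 * p.time (fun _ => 0) s := by
  induction p with
  | set i e => intro s; simp only [Prog.derand, Prog.time]; omega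
  | put j e e' => intro s; simp only [Prog.derand, Prog.time]; omega
  | rand i => intro s; simp [Prog.derand, Prog.time, Expr.cost]
  | seq p q ihp ihq =>
    intro s
    simp only [Prog.derand, Prog.time]
    rw [Prog.derand_run]
    have h1 := ihp s
    have h2 := ihq (p.run (fun _ => 0) s)
    omega
  | ite e p q ihp ihq =>
    intro s
    have h1 := ihp s
    have h2 := ihq s
    simp only [Prog.derand, Prog.time, Expr.eval_withC]
    split_ifs <;> omega
  | loop i e p ih =>
    intro s
    simp only [Prog.derand, Prog.time, Expr.eval_withC]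
    have h : ∑ t ∈ Finset.range (e.eval s), (p.derand.time ρ
        (((s.withC c).rounds (fun t s' => p.derand.run ρ (s'.setReg i t)) t).setReg i t) + 2) ≤
        2 * ∑ t ∈ Finset.range (e.eval s), (p.time (fun _ => 0)
          ((s.rounds (fun t s' => p.run (fun _ => 0) (s'.setReg i t)) t).setReg i t) + 2) := by
      rw [Finset.mul_sum]
      apply Finset.sum_le_sum
      intro t _
      rw [derand_rounds]
      have := ih ((s.rounds (fun t s' => p.run (fun _ => 0) (s'.setReg i t)) t).setReg i t)
      have e1 : ((s.rounds (fun t s' => p.run (fun _ => 0) (s'.setReg i t)) t).withC c).setReg i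
          t = ((s.rounds (fun t s' => p.run (fun _ => 0) (s'.setReg i t)) t).setReg i t).withC
          c := rfl
      rw [e1]
      omega
    omega

theorem Prog.derand_top (ρ : ℕ → ℕ) (c : ℕ) (p : Prog) : ∀ s : State,
    p.derand.top ρ (s.withC c) ≤ p.top (fun _ => 0) s := by
  induction p with
  | set i e => intro s; simp only [Prog.derand, Prog.top, Expr.top_withC, le_refl]
  | put j e e' => intro s; simp only [Prog.derand, Prog.top, Expr.top_withC, le_refl]
  | rand i => intro s; simp [Prog.derand, Prog.top, Expr.top]
  | seq p q ihp ihq =>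
    intro s
    simp only [Prog.derand, Prog.top]
    rw [Prog.derand_run]
    exact max_le_max (ihp s) (ihq _)
  | ite e p q ihp ihq =>
    intro s
    simp only [Prog.derand, Prog.top, Expr.eval_withC, Expr.top_withC]
    refine max_le_max le_rfl ?_
    split_ifs
    · exact ihq s
    · exact ihp s
  | loop i e p ih =>
    intro s
    simp only [Prog.derand, Prog.top, Expr.eval_withC, Expr.top_withC]
    refine max_le_max le_rfl (Finset.sup_mono_fun fun t _ => ?_)
    rw [derand_rounds]
    exact ih ((s.rounds (fun t s' => p.run (fun _ => 0) (s'.setReg i t)) t).setReg i t)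

/-- The environment with the tape `0`. -/
def Env.zero (E : Env) : Env :=
  { E with ρ := fun _ => 0, hρ := fun _ => by have := E.hρ 0; omega }

@[simp] theorem Env.zero_R (E : Env) : E.zero.R = E.R := rfl

/-- Specification of the program without random words. -/
theorem Spec.derand {E : Env} {s : State} {p : Prog} {c : ℕ} {Q : State → Prop}
    (h : Spec E.zero s p c Q) :
    Spec E s p.derand (2 * c) (fun s' => s'.coins = s.coins ∧ ∃ c', Q (s'.withC c')) := by
  intro hb
  have hb' : Bdd E.zero s := ⟨hb.reg, hb.arr, hb.x, hb.y⟩
  obtain ⟨h1, h2, h3, h4⟩ := h hb'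
  have hrun := Prog.derand_run E.ρ s.coins p s
  have htime := Prog.derand_time E.ρ s.coins p s
  have htop := Prog.derand_top E.ρ s.coins p s
  rw [State.withC_self] at hrun htime htop
  refine ⟨⟨?_, (p.run E.zero.ρ s).coins, ?_⟩, ?_, ?_, ?_⟩
  · rw [hrun]; rfl
  · rw [hrun]; exact h1
  · rw [hrun]
    exact ⟨h2.reg, h2.arr, h2.x, h2.y⟩
  · exact htime.trans (Nat.mul_le_mul_left _ h3)
  · exact lt_of_le_of_lt htop h4

end Vale.Agent.P315
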