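import Vale.Agent.P315.RAM.Oracle
import Vale.Agent.P315.H155.Auto

/-!
# Parameters as polynomial time functions

`exists_reads`: read several numbers, computed by polynomial time functions from the memory word,
into registers.
-/

set_option autoImplicit false

namespace Vale.Agent.P315.RAM

open Vale.Agent.Lib.PolyTime (Word pb pr FP PT Enc enc esize)

theorem pow_step (n k₁ k₂ : ℕ) : (n + 2) ^ k₁ + (2 + (n + 2) ^ k₂) ≤ (n + 2) ^ (k₁ + k₂ + 2) := by
  have h1 : (n + 2) ^ k₁ ≤ (n + 2) ^ (k₁ + k₂) := Nat.pow_le_pow_right (by omega) (by omega)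
  have h2 : (n + 2) ^ k₂ ≤ (n + 2) ^ (k₁ + k₂) := Nat.pow_le_pow_right (by omega) (by omega)
  have h3 : 1 ≤ (n + 2) ^ (k₁ + k₂) := Nat.one_le_pow _ _ (by omega)
  have h4 : (n + 2) ^ (k₁ + k₂ + 2) = (n + 2) ^ (k₁ + k₂) * ((n + 2) * (n + 2)) := by ring
  have h5 : 2 * 2 ≤ (n + 2) * (n + 2) := Nat.mul_le_mul (by omega) (by omega)
  have h6 := Nat.mul_le_mul_left ((n + 2) ^ (k₁ + k₂)) h5
  omega

/-- Read several numbers into registers. -/
theorem exists_reads {α : Type*} [Enc α] (z : ℕ) (gs : List (ℕ × (α → ℕ)))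
    (hgs : ∀ g ∈ gs, PT ∅ g.2) :
    ∃ (W k : ℕ) (P : Lay → Prog),
      (∀ L, (∀ i ∈ (P L).wr, i = z ∨ i = z + 4 ∨ i = L.c ∨ i = L.B ∨ (L.r ≤ i ∧ i ≤ L.r + W) ∨
        i ∈ gs.map Prod.fst) ∧ ∀ i ∈ (P L).wa, L.a ≤ i ∧ i ≤ L.a + W) ∧
      ∀ (L : Lay), L.Ok → z + 4 < L.r → (gs.map Prod.fst).Nodup →
        (∀ i ∈ gs.map Prod.fst, i < L.r ∧ i ≠ L.c ∧ i ≠ L.B ∧ i ≠ z ∧ i ≠ z + 4) →
        ∀ (E : Env) (σ : State) (a : α), Mem σ L a → (esize a + 2) ^ k ≤ E.R →
        (∀ g ∈ gs, g.2 a ≤ E.R) →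
        Spec E σ (P L) ((esize a + 2) ^ k)
          (fun σ' => Mem σ' L a ∧ ∀ g ∈ gs, σ'.reg g.1 = g.2 a) := by
  induction gs with
  | nil =>
    refine ⟨0, 1, fun _ => .set z (.lit 0), fun L => ⟨fun i hi => ?_, fun i hi => ?_⟩, ?_⟩
    · simp [Prog.wr] at hi
      exact Or.inl hi
    · simp [Prog.wa] at hi
    · intro L hL hz _ _ E σ a ha _ _
      refine (Spec.set0 0 rfl rfl (fun _ => by omega) fun _ => ⟨?_, fun g hg => by simp at hg⟩).le
        (by simp [Expr.cost])
      exact ha.congr (by rw [State.setReg_reg, if_neg (by omega)]) rfl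
  | cons g gs ih =>
    obtain ⟨W₁, k₁, R, hR, hRs⟩ := exists_read (hgs g (by simp))
    obtain ⟨W₂, k₂, P, hP, hPs⟩ := ih fun g' hg' => hgs g' (by simp [hg'])
    refine ⟨W₁ + W₂, k₁ + k₂ + 2, fun L => .seq (R L z) (.seq (.set g.1 (.reg z)) (P L)),
      fun L => ⟨fun i hi => ?_, fun i hi => ?_⟩, ?_⟩
    · simp only [Prog.wr, List.mem_append, List.mem_cons, List.not_mem_nil, or_false] at hi
      rcases hi with hi | hi | hi
      · have := (hR L z).1 i hi
        omega
      · simp [hi]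
      · rcases (hP L).1 i hi with h | h | h | h | h | h
        · simp [h]
        · simp [h]
        · simp [h]
        · simp [h]
        · right; right; right; right; left; omega
        · right; right; right; right; right; simp only [List.map_cons, List.mem_cons]
          exact Or.inr h
    · simp only [Prog.wa, List.mem_append, List.not_mem_nil, false_or] at hi
      rcases hi with hi | hi
      · have := (hR L z).2 i hi
        omega
      · have := (hP L).2 i hi
        omega
    · intro L hL hz hnd hreg E σ a ha hk hv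
      rw [List.map_cons, List.nodup_cons] at hnd
      have hst := pow_step (esize a) k₁ k₂
      have hg1 := hreg g.1 (by simp)
      refine (Spec.seq0 ((esize a + 2) ^ k₁) (2 + (esize a + 2) ^ k₂)
        (fun σ' => Mem σ' L a ∧ σ'.reg z = g.2 a)
        (hRs L hL z (Or.inr hz) E σ a ha (by omega) (hv g (by simp))) ?_).le hst
      rintro σ1 - ⟨h1, h2⟩
      refine Spec.seq0 2 _ (fun σ' => σ' = σ1.setReg g.1 (g.2 a)) ?_ ?_
      · refine Spec.set0 (g.2 a) rfl (by simpa using h2) (fun _ => hv g (by simp)) fun _ => rfl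
      rintro σ2 - rfl
      have hreg' : ∀ i ∈ gs.map Prod.fst, i < L.r ∧ i ≠ L.c ∧ i ≠ L.B ∧ i ≠ z ∧ i ≠ z + 4 :=
        fun i hi => hreg i (List.mem_cons_of_mem _ hi)
      refine ((hPs L hL hz hnd.2 hreg' E (σ1.setReg g.1 (g.2 a)) a (h1.congr ?_ rfl)
        (by omega)
        (fun g' hg' => hv g' (by simp [hg']))).withFrame).mono le_rfl ?_
      · rw [State.setReg_reg, if_neg (by omega)]
      · rintro σ' ⟨hf, h3, h4⟩
        refine ⟨h3, fun g' hg' => ?_⟩
        rw [List.mem_cons] at hg'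
        rcases hg' with rfl | hg'
        · rw [hf.reg]
          · simp
          · intro hi
            rcases (hP L).1 _ hi with h | h | h | h | h | h
            · omega
            · omega
            · omega
            · omega
            · omega
            · exact hnd.1 h
        · exact h4 g' hg'

end Vale.Agent.P315.RAM
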